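import Crest.Agent.S94.Defs

set_option autoImplicit false

namespace Crest.Agent.S94
open Finset

theorem greedy {P X V : Type} [Fintype P] [Fintype X] [DecidableEq X] [DecidableEq V]
    [Nonempty V] (h : ℕ) (φ : P → Finset X → ℝ) (u : P → X → V) (U : Finset X) (w : P → ℝ)
    (hw0 : ∀ p, 0 ≤ w p) (hw1 : ∑ p, w p ≤ 1)
    (h0 : ∀ p A, 0 ≤ φ p A) (hh : ∀ p A, φ p A ≤ h)
    (hmono : ∀ p A B, A ⊆ B → φ p A ≤ φ p B)
    (hsup : ∀ p A B, φ p A + φ p B ≤ φ p (A ∪ B) + φ p (A ∩ B) + 1) :
    ∃ Ys : Fin h → X → V, ∀ y : X → V,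
      ∑ p, w p * (φ p (U.filter (fun x => y x = u p x))
        - φ p (U.filter (fun x => y x = u p x ∧ ∃ i, Ys i x = u p x))) ≤ 2 := by
  classical
  set S : Finset (X → V) → P → Finset X := fun L p => U.filter (fun x => ∃ z ∈ L, z x = u p x)
    with hS
  set Ψ : Finset (X → V) → ℝ := fun L => ∑ p, w p * φ p (S L p) with hΨ
  have good_or : ∀ L : Finset (X → V), (∀ y : X → V,
      ∑ p, w p * (φ p (U.filter (fun x => y x = u p x))
        - φ p (U.filter (fun x => y x = u p x ∧ ∃ z ∈ L, z x = u p x))) ≤ 2) ∨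
      ∃ y : X → V, Ψ L + 1 < Ψ (insert y L) := by
    intro L
    by_cases hg : ∀ y : X → V,
      ∑ p, w p * (φ p (U.filter (fun x => y x = u p x))
        - φ p (U.filter (fun x => y x = u p x ∧ ∃ z ∈ L, z x = u p x))) ≤ 2
    · exact Or.inl hg
    · right
      push Not at hg
      obtain ⟨y, hy⟩ := hg
      refine ⟨y, ?_⟩
      have key : ∀ p, w p * φ p (S L p) + w p * (φ p (U.filter (fun x => y x = u p x))
        - φ p (U.filter (fun x => y x = u p x ∧ ∃ z ∈ L, z x = u p x))) - w p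
          ≤ w p * φ p (S (insert y L) p) := by
        intro p
        have h1 := hsup p (U.filter (fun x => y x = u p x)) (S L p)
        have e1 : U.filter (fun x => y x = u p x) ∪ S L p = S (insert y L) p := by
          ext x
          simp only [hS, mem_union, mem_filter, mem_insert, exists_eq_or_imp]
          tauto
        have e2 : U.filter (fun x => y x = u p x) ∩ S L p
            = U.filter (fun x => y x = u p x ∧ ∃ z ∈ L, z x = u p x) := by
          ext x
          simp only [hS, mem_inter, mem_filter]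
          tauto
        rw [e1, e2] at h1
        nlinarith [hw0 p]
      have := Finset.sum_le_sum (fun p (_ : p ∈ Finset.univ) => key p)
      rw [Finset.sum_sub_distrib, Finset.sum_add_distrib] at this
      simp only [hΨ]
      linarith
  have hΨle : ∀ L, Ψ L ≤ h := by
    intro L
    calc Ψ L ≤ ∑ p, w p * h :=
          Finset.sum_le_sum (fun p _ => mul_le_mul_of_nonneg_left (hh p _) (hw0 p))
      _ = (∑ p, w p) * h := by rw [Finset.sum_mul]
      _ ≤ 1 * h := mul_le_mul_of_nonneg_right hw1 (Nat.cast_nonneg _)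
      _ = h := one_mul _
  have hΨ0 : ∀ L, 0 ≤ Ψ L := fun L =>
    Finset.sum_nonneg (fun p _ => mul_nonneg (hw0 p) (h0 p _))
  have main : ∀ k : ℕ, ∃ L : Finset (X → V), L.card ≤ k ∧ ((∀ y : X → V,
      ∑ p, w p * (φ p (U.filter (fun x => y x = u p x))
        - φ p (U.filter (fun x => y x = u p x ∧ ∃ z ∈ L, z x = u p x))) ≤ 2) ∨ (k : ℝ) ≤ Ψ L) := by
    intro k
    induction k with
    | zero => exact ⟨∅, by simp, Or.inr (by simpa using hΨ0 ∅)⟩
    | succ k ih =>
      obtain ⟨L, hL, hor⟩ := ih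
      rcases hor with hg | hk
      · exact ⟨L, hL.trans (Nat.le_succ _), Or.inl hg⟩
      · rcases good_or L with hg | ⟨y, hy⟩
        · exact ⟨L, hL.trans (Nat.le_succ _), Or.inl hg⟩
        · refine ⟨insert y L, (Finset.card_insert_le _ _).trans (Nat.succ_le_succ hL),
            Or.inr ?_⟩
          push_cast; linarith
  obtain ⟨L, hL, hor⟩ := main h
  have hg : ∀ y : X → V,
      ∑ p, w p * (φ p (U.filter (fun x => y x = u p x))
        - φ p (U.filter (fun x => y x = u p x ∧ ∃ z ∈ L, z x = u p x))) ≤ 2 := by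
    rcases hor with hg | hk
    · exact hg
    · rcases good_or L with hg | ⟨y, hy⟩
      · exact hg
      · have := hΨle (insert y L)
        linarith
  obtain ⟨v0⟩ := ‹Nonempty V›
  refine ⟨fun i => if hi : i.1 < L.card then (L.equivFin.symm ⟨i.1, hi⟩).1 else fun _ => v0,
    fun y => le_trans (Finset.sum_le_sum (fun p _ => ?_)) (hg y)⟩
  apply mul_le_mul_of_nonneg_left _ (hw0 p)
  apply sub_le_sub_left
  apply hmono
  intro x hx
  simp only [mem_filter] at hx ⊢
  obtain ⟨hxU, hxy, z, hz, hzx⟩ := hx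
  refine ⟨hxU, hxy, ⟨(L.equivFin ⟨z, hz⟩).1, (L.equivFin ⟨z, hz⟩).2.trans_le hL⟩, ?_⟩
  simp only [Fin.is_lt, dif_pos]
  have : L.equivFin.symm ⟨(L.equivFin ⟨z, hz⟩).1, (L.equivFin ⟨z, hz⟩).2⟩ = ⟨z, hz⟩ := by
    simp
  rw [this]
  exact hzx

end Crest.Agent.S94
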