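import Crest.Agent.S94.PhiLem
import Crest.Agent.S94.Greedy

set_option autoImplicit false

namespace Crest.Agent.S94
open Finset

/-- averaging over `j` -/
theorem exists_index {N q m h t : ℕ} (hN0 : 0 < N) (hh : 0 < h) (hN : h * (t * q ^ t) ≤ N)
    (I : JJ N q → Finset (Fin N)) (hI : ∀ J, N ≤ (I J).card + t * q ^ t)
    (ν : Cols N q m → ℝ) (hν : ∑ p, |ν p| ≤ 1) :
    ∃ j : Fin N, ∑ p, |ν p| * (if j ∈ I p.1 then (0 : ℝ) else 1) ≤ 1 / h := by
  classical
  by_contra hc
  push Not at hc
  have hN0' : (0:ℝ) < N := by exact_mod_cast hN0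
  have hh' : (0:ℝ) < h := by exact_mod_cast hh
  have : Nonempty (Fin N) := ⟨⟨0, hN0⟩⟩
  have h1 : ∑ _j : Fin N, (1 / h : ℝ) < ∑ j : Fin N, ∑ p, |ν p| * (if j ∈ I p.1 then (0 : ℝ) else 1) :=
    Finset.sum_lt_sum_of_nonempty univ_nonempty (fun j _ => hc j)
  rw [Finset.sum_const, Finset.card_univ, Fintype.card_fin, nsmul_eq_mul, Finset.sum_comm] at h1
  have h2 : ∀ p : Cols N q m, ∑ j : Fin N, |ν p| * (if j ∈ I p.1 then (0 : ℝ) else 1)
      ≤ |ν p| * (t * q ^ t : ℕ) := by
    intro p
    rw [← Finset.mul_sum]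
    apply mul_le_mul_of_nonneg_left _ (abs_nonneg _)
    have e : ∑ j : Fin N, (if j ∈ I p.1 then (0 : ℝ) else 1) = ((univ \ I p.1).card : ℝ) := by
      rw [Finset.card_eq_sum_ones, Nat.cast_sum]
      rw [← Finset.sum_filter_add_sum_filter_not univ (fun j => j ∈ I p.1)]
      rw [Finset.sum_ite_of_true (by intro x hx; exact (mem_filter.mp hx).2),
        Finset.sum_ite_of_false (by intro x hx; exact (mem_filter.mp hx).2)]
      simp only [Finset.sum_const_zero, zero_add, Nat.cast_one]
      have : univ.filter (fun j => ¬ j ∈ I p.1) = univ \ I p.1 := by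
        ext j; simp
      rw [this]
    rw [e]
    have hcard : (univ \ I p.1).card = N - (I p.1).card := by
      rw [Finset.card_sdiff_of_subset (subset_univ _), Finset.card_univ, Fintype.card_fin]
    have := hI p.1
    have h3 : (univ \ I p.1).card ≤ t * q ^ t := by omega
    exact_mod_cast h3
  have h3 : ∑ p : Cols N q m, ∑ j : Fin N, |ν p| * (if j ∈ I p.1 then (0 : ℝ) else 1)
      ≤ (t * q ^ t : ℕ) := by
    calc _ ≤ ∑ p : Cols N q m, |ν p| * (t * q ^ t : ℕ) := Finset.sum_le_sum (fun p _ => h2 p)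
      _ = (∑ p, |ν p|) * (t * q ^ t : ℕ) := by rw [Finset.sum_mul]
      _ ≤ 1 * (t * q ^ t : ℕ) := mul_le_mul_of_nonneg_right hν (Nat.cast_nonneg _)
      _ = _ := one_mul _
  have h4 : (h : ℝ) * (t * q ^ t : ℕ) ≤ N := by exact_mod_cast hN
  have h5 : (N : ℝ) * (1 / h) < (t * q ^ t : ℕ) := lt_of_lt_of_le h1 h3
  rw [mul_one_div, div_lt_iff₀ hh'] at h5
  nlinarith

/-- `F_ν` is 4-approximated by the part seen on the sub-cube `W {j}` through `h` listed rows -/
theorem approx {N q m h t : ℕ} (hN0 : 0 < N) (hh : 0 < h) (hm : 0 < m)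
    (hN : h * (t * q ^ t) ≤ N)
    (I : JJ N q → Finset (Fin N)) (hI : ∀ J, N ≤ (I J).card + t * q ^ t)
    (ν : Cols N q m → ℝ) (hν : ∑ p, |ν p| ≤ 1) :
    ∃ (j : Fin N) (Ys : Fin h → (Fin N → Fin q) → Fin m), ∀ y : (Fin N → Fin q) → Fin m,
      |∑ p, ν p * FF h I y p
        - ∑ p, ν p * (Phi h (I p.1) p.1.1
            ((W {j}).filter (fun x => y x = p.2 x ∧ ∃ i, Ys i x = p.2 x)) : ℝ)| ≤ 4 := by
  classical
  obtain ⟨j, hj⟩ := exists_index hN0 hh hN I hI ν hν
  have : Nonempty (Fin m) := ⟨⟨0, hm⟩⟩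
  obtain ⟨Ys, hYs⟩ := greedy (P := Cols N q m) (X := Fin N → Fin q) (V := Fin m) h
    (fun p A => (Phi h (I p.1) p.1.1 A : ℝ)) (fun p => p.2) (W {j}) (fun p => |ν p|)
    (fun p => abs_nonneg _) hν (fun p A => Nat.cast_nonneg _)
    (fun p A => by exact_mod_cast Phi_le h (I p.1) p.1.1 A)
    (fun p A B hAB => by exact_mod_cast Phi_mono h (I p.1) p.1.1 hAB)
    (fun p A B => by exact_mod_cast Phi_super h (I p.1) p.1.1 A B)
  refine ⟨j, Ys, fun y => ?_⟩
  have hh' : (0:ℝ) < h := by exact_mod_cast hh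
  rw [← Finset.sum_sub_distrib]
  calc |∑ p, (ν p * FF h I y p - ν p * (Phi h (I p.1) p.1.1
            ((W {j}).filter (fun x => y x = p.2 x ∧ ∃ i, Ys i x = p.2 x)) : ℝ))|
      ≤ ∑ p, |ν p * FF h I y p - ν p * (Phi h (I p.1) p.1.1
            ((W {j}).filter (fun x => y x = p.2 x ∧ ∃ i, Ys i x = p.2 x)) : ℝ)| :=
        Finset.abs_sum_le_sum_abs _ _
    _ ≤ ∑ p, (|ν p| + h * (|ν p| * (if j ∈ I p.1 then (0 : ℝ) else 1))
          + |ν p| * ((Phi h (I p.1) p.1.1 ((W {j}).filter (fun x => y x = p.2 x)) : ℝ)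
            - (Phi h (I p.1) p.1.1
              ((W {j}).filter (fun x => y x = p.2 x ∧ ∃ i, Ys i x = p.2 x)) : ℝ))) := by
        apply Finset.sum_le_sum
        intro p _
        rw [← mul_sub, abs_mul]
        have hA : ((W {j}).filter (fun x => y x = p.2 x ∧ ∃ i, Ys i x = p.2 x))
            ⊆ (W {j}).filter (fun x => y x = p.2 x) := by
          intro x hx
          simp only [mem_filter] at hx ⊢
          exact ⟨hx.1, hx.2.1⟩
        have hB : (W {j}).filter (fun x => y x = p.2 x) ⊆ univ.filter (fun x => y x = p.2 x) := by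
          intro x hx
          simp only [mem_filter, mem_univ, true_and] at hx ⊢
          exact hx.2
        have m1 : (Phi h (I p.1) p.1.1
              ((W {j}).filter (fun x => y x = p.2 x ∧ ∃ i, Ys i x = p.2 x)) : ℝ) ≤
            (Phi h (I p.1) p.1.1 ((W {j}).filter (fun x => y x = p.2 x)) : ℝ) := by
          exact_mod_cast Phi_mono h (I p.1) p.1.1 hA
        have m2 : (Phi h (I p.1) p.1.1 ((W {j}).filter (fun x => y x = p.2 x)) : ℝ) ≤
            FF h I y p := by
          unfold FF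
          exact_mod_cast Phi_mono h (I p.1) p.1.1 hB
        have m3 : FF h I y p ≤ (Phi h (I p.1) p.1.1 ((W {j}).filter (fun x => y x = p.2 x)) : ℝ)
            + 1 + h * (if j ∈ I p.1 then (0 : ℝ) else 1) := by
          split_ifs with hjI
          · have := Phi_inter_W h (I p.1) p.1.1 (univ.filter (fun x => y x = p.2 x)) hjI
            have e : univ.filter (fun x => y x = p.2 x) ∩ W {j}
                = (W {j}).filter (fun x => y x = p.2 x) := by
              ext x
              simp only [mem_inter, mem_filter, mem_univ, true_and]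
              tauto
            rw [e] at this
            unfold FF
            rw [mul_zero, add_zero]
            exact_mod_cast this
          · have h1 : FF h I y p ≤ h := by
              unfold FF
              exact_mod_cast Phi_le h (I p.1) p.1.1 _
            have h2 : (0:ℝ) ≤ (Phi h (I p.1) p.1.1 ((W {j}).filter (fun x => y x = p.2 x)) : ℝ) :=
              Nat.cast_nonneg _
            linarith
        have hab : |FF h I y p - (Phi h (I p.1) p.1.1
              ((W {j}).filter (fun x => y x = p.2 x ∧ ∃ i, Ys i x = p.2 x)) : ℝ)|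
            = FF h I y p - (Phi h (I p.1) p.1.1
              ((W {j}).filter (fun x => y x = p.2 x ∧ ∃ i, Ys i x = p.2 x)) : ℝ) :=
          abs_of_nonneg (by linarith)
        rw [hab]
        have h0 := abs_nonneg (ν p)
        have h1 := mul_le_mul_of_nonneg_left m3 h0
        nlinarith [h1]
    _ = ∑ p, |ν p| + h * ∑ p, (|ν p| * (if j ∈ I p.1 then (0 : ℝ) else 1))
          + ∑ p, |ν p| * ((Phi h (I p.1) p.1.1 ((W {j}).filter (fun x => y x = p.2 x)) : ℝ)
            - (Phi h (I p.1) p.1.1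
              ((W {j}).filter (fun x => y x = p.2 x ∧ ∃ i, Ys i x = p.2 x)) : ℝ)) := by
        rw [Finset.sum_add_distrib, Finset.sum_add_distrib, Finset.mul_sum]
    _ ≤ 1 + h * (1 / h) + 2 := by
        apply add_le_add
        · exact add_le_add hν (mul_le_mul_of_nonneg_left hj hh'.le)
        · exact hYs y
    _ = 4 := by
        rw [mul_one_div_cancel hh'.ne']; norm_num

end Crest.Agent.S94
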