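import Mathlib

set_option autoImplicit false

namespace Crest.Agent.S94
open Finset

/-- the sub-cube of `[q]^N` on which all coordinates in `Q` vanish -/
def W {N q : ℕ} (Q : Finset (Fin N)) : Finset (Fin N → Fin q) :=
  univ.filter (fun x => ∀ j ∈ Q, (x j).val = 0)

/-- `A` has level `< 2^i` (relative to good index set `I` and removed set `J`) -/
def lev {N q : ℕ} (I : Finset (Fin N)) (J A : Finset (Fin N → Fin q)) (i : ℕ) : Prop :=
  ∃ Q ⊆ I, Q.card < 2 ^ i ∧ W Q \ J ⊆ A

open scoped Classical in
/-- the set function: `h` minus the logarithm of the level -/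
noncomputable def Phi {N q : ℕ} (h : ℕ) (I : Finset (Fin N)) (J A : Finset (Fin N → Fin q)) : ℕ :=
  ((range h).filter (fun i => lev I J A i)).card

/-- small sets `J` (at most half of the cube) -/
abbrev JJ (N q : ℕ) : Type := {J : Finset (Fin N → Fin q) // 2 * J.card ≤ q ^ N}

/-- columns -/
abbrev Cols (N q m : ℕ) : Type := JJ N q × ((Fin N → Fin q) → Fin m)

/-- matrix entries: row `y`, column `p = (J, u)` -/
noncomputable def FF {N q m : ℕ} (h : ℕ) (I : JJ N q → Finset (Fin N))
    (y : (Fin N → Fin q) → Fin m) (p : Cols N q m) : ℝ :=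
  (Phi h (I p.1) p.1.1 (univ.filter (fun x => y x = p.2 x)) : ℝ)

end Crest.Agent.S94
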