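import Mathlib
import Crest.Agent.S94.Defs

set_option autoImplicit false

namespace Crest.Agent.S94
open Finset

theorem card_W {N q : ℕ} (hq : 0 < q) (Q : Finset (Fin N)) :
    (W (q := q) Q).card * q ^ Q.card = q ^ N := by
  classical
  have : NeZero q := ⟨hq.ne'⟩
  have h1 : W (q := q) Q = Fintype.piFinset
      (fun j => if j ∈ Q then ({0} : Finset (Fin q)) else Finset.univ) := by
    ext x
    simp only [W, Finset.mem_filter, Finset.mem_univ, true_and, Fintype.mem_piFinset]
    constructor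
    · intro h j
      by_cases hj : j ∈ Q
      · simp only [hj, if_true, Finset.mem_singleton]
        exact Fin.ext (by simpa using h j hj)
      · simp [hj]
    · intro h j hj
      have := h j
      simp only [hj, if_true, Finset.mem_singleton] at this
      simp [this]
  have h2 : (W (q := q) Q).card = q ^ (N - Q.card) := by
    rw [h1, Fintype.card_piFinset]
    have h3 : ∀ j : Fin N, (if j ∈ Q then ({0} : Finset (Fin q)) else Finset.univ).card
        = if j ∈ Q then 1 else q := by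
      intro j; split_ifs <;> simp
    rw [Finset.prod_congr rfl (fun j _ => h3 j), Finset.prod_ite]
    simp only [Finset.prod_const_one, one_mul, Finset.prod_const]
    congr 1
    have h4 : (Finset.univ.filter (fun j : Fin N => ¬ j ∈ Q)) = Qᶜ := by
      ext j; simp
    rw [h4, Finset.card_compl, Fintype.card_fin]
  have h5 : Q.card ≤ N := by simpa using Finset.card_le_univ Q
  rw [h2, ← pow_add, Nat.sub_add_cancel h5]

/-- The points outside every `W Q`, `Q ∈ F`. -/
def Bout {q N : ℕ} (F : Finset (Finset (Fin N))) : Finset (Fin N → Fin q) :=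
  Finset.univ.filter (fun x => ∀ Q ∈ F, x ∉ W Q)

theorem mem_W_iff {q N : ℕ} (Q : Finset (Fin N)) (x : Fin N → Fin q) :
    x ∈ W Q ↔ ∀ j ∈ Q, (x j).val = 0 := by simp [W]

theorem Bout_le {q N : ℕ} [NeZero q] (F : Finset (Finset (Fin N))) (Q0 : Finset (Fin N))
    (h : ∀ Q ∈ F, Disjoint Q Q0) :
    (Bout (q := q) F).card ≤ q ^ Q0.card * (Bout (q := q) F ∩ W Q0).card := by
  classical
  have h1 : Fintype.card ({j // j ∈ Q0} → Fin q) = q ^ Q0.card := by
    simp
  rw [← h1, ← Finset.card_univ, ← Finset.card_product]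
  refine Finset.card_le_card_of_injOn
    (fun x => ((fun j => x j.1), (fun j => if j ∈ Q0 then 0 else x j))) ?_ ?_
  · intro x hx
    have hx' : ∀ Q ∈ F, x ∉ W Q := by simpa [Bout] using hx
    simp only [Finset.coe_product, Set.mem_prod, Finset.coe_univ, Set.mem_univ, true_and,
      Finset.mem_coe, Finset.mem_inter]
    refine ⟨?_, ?_⟩
    · simp only [Bout, Finset.mem_filter, Finset.mem_univ, true_and]
      intro Q hQ hmem
      apply hx' Q hQ
      rw [mem_W_iff] at hmem ⊢
      intro j hj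
      have hj0 : j ∉ Q0 := fun hj' => (Finset.disjoint_left.mp (h Q hQ)) hj hj'
      have := hmem j hj
      simpa [hj0] using this
    · rw [mem_W_iff]
      intro j hj
      simp [hj]
  · intro x _ y _ hxy
    simp only [Prod.mk.injEq] at hxy
    obtain ⟨h2, h3⟩ := hxy
    funext j
    by_cases hj : j ∈ Q0
    · exact congrFun h2 ⟨j, hj⟩
    · have := congrFun h3 j
      simpa [hj] using this

theorem Bout_card {q N : ℕ} [NeZero q] (t : ℕ) (F : Finset (Finset (Fin N)))
    (hd : ∀ Q ∈ F, ∀ Q' ∈ F, Q ≠ Q' → Disjoint Q Q') (ht : ∀ Q ∈ F, Q.card ≤ t) :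
    ((Bout (q := q) F).card : ℝ) ≤ (1 - 1 / (q : ℝ) ^ t) ^ F.card * (q : ℝ) ^ N := by
  classical
  have hq : (1 : ℝ) ≤ q := by
    exact_mod_cast Nat.one_le_iff_ne_zero.mpr (NeZero.ne q)
  have hq0 : (0 : ℝ) < q := by linarith
  induction F using Finset.induction_on with
  | empty =>
    have : (Bout (q := q) (N := N) ∅).card ≤ q ^ N := by
      refine (Finset.card_le_univ _).trans ?_
      simp
    simpa using (by exact_mod_cast this : ((Bout (q := q) (N := N) ∅).card : ℝ) ≤ (q : ℝ) ^ N)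
  | insert Q F hQ ih =>
    have ih' := ih (fun Q1 h1 Q2 h2 h12 => hd Q1 (Finset.mem_insert_of_mem h1) Q2
      (Finset.mem_insert_of_mem h2) h12) (fun Q1 h1 => ht Q1 (Finset.mem_insert_of_mem h1))
    have h1 : Bout (q := q) (insert Q F) = Bout F \ (Bout F ∩ W Q) := by
      ext x
      simp only [Bout, Finset.mem_filter, Finset.mem_univ, true_and, Finset.mem_insert,
        Finset.mem_sdiff, Finset.mem_inter]
      constructor
      · intro h
        exact ⟨fun Q' hQ' => h Q' (Or.inr hQ'), fun h' => h Q (Or.inl rfl) h'.2⟩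
      · rintro ⟨h1, h2⟩ Q' (rfl | hQ')
        · exact fun h' => h2 ⟨h1, h'⟩
        · exact h1 Q' hQ'
    have h2 : (Bout (q := q) (insert Q F)).card = (Bout (q := q) F).card
        - (Bout (q := q) F ∩ W Q).card := by
      rw [h1, Finset.card_sdiff_of_subset Finset.inter_subset_left]
    have h3 : (Bout (q := q) F ∩ W Q).card ≤ (Bout (q := q) F).card :=
      Finset.card_le_card Finset.inter_subset_left
    have h4 := Bout_le (q := q) F Q (fun Q' hQ' => hd Q' (Finset.mem_insert_of_mem hQ') Q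
      (Finset.mem_insert_self _ _) (fun h => hQ (h ▸ hQ')))
    have h5 : ((Bout (q := q) F).card : ℝ) ≤ (q : ℝ) ^ t * ((Bout (q := q) F ∩ W Q).card : ℝ) := by
      have h6 : ((Bout (q := q) F).card : ℝ) ≤ (q : ℝ) ^ Q.card *
          ((Bout (q := q) F ∩ W Q).card : ℝ) := by exact_mod_cast h4
      refine h6.trans (mul_le_mul_of_nonneg_right ?_ (Nat.cast_nonneg _))
      exact pow_le_pow_right₀ hq (ht Q (Finset.mem_insert_self _ _))
    have hqt : (0 : ℝ) < (q : ℝ) ^ t := pow_pos hq0 _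
    have h7 : ((Bout (q := q) F).card : ℝ) / (q : ℝ) ^ t ≤ ((Bout (q := q) F ∩ W Q).card : ℝ) := by
      rw [div_le_iff₀ hqt]; linarith
    rw [h2, Nat.cast_sub h3, Finset.card_insert_of_notMem hQ, pow_succ]
    have h8 : (0 : ℝ) ≤ 1 - 1 / (q : ℝ) ^ t := by
      have : 1 / (q : ℝ) ^ t ≤ 1 := by
        rw [div_le_one hqt]; exact one_le_pow₀ hq
      linarith
    calc ((Bout (q := q) F).card : ℝ) - ((Bout (q := q) F ∩ W Q).card : ℝ)
        ≤ ((Bout (q := q) F).card : ℝ) * (1 - 1 / (q : ℝ) ^ t) := by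
          have : ((Bout (q := q) F).card : ℝ) * (1 - 1 / (q : ℝ) ^ t) =
            ((Bout (q := q) F).card : ℝ) - ((Bout (q := q) F).card : ℝ) / (q : ℝ) ^ t := by ring
          rw [this]; linarith
      _ ≤ ((1 - 1 / (q : ℝ) ^ t) ^ F.card * (q : ℝ) ^ N) * (1 - 1 / (q : ℝ) ^ t) :=
          mul_le_mul_of_nonneg_right ih' h8
      _ = (1 - 1 / (q : ℝ) ^ t) ^ F.card * (1 - 1 / (q : ℝ) ^ t) * (q : ℝ) ^ N := by ring

theorem pow_lt_half (n k : ℕ) (hn : 1 ≤ n) (hk : n ≤ k) : (1 - 1 / (n : ℝ)) ^ k < 1 / 2 := by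
  have hn0 : (0 : ℝ) < n := by exact_mod_cast hn
  have h0 : (0 : ℝ) ≤ 1 - 1 / (n : ℝ) := by
    have : 1 / (n : ℝ) ≤ 1 := by
      rw [div_le_one hn0]; exact_mod_cast hn
    linarith
  have h1 : (1 - 1 / (n : ℝ)) ≤ Real.exp (-(1 / (n : ℝ))) := by
    have := Real.add_one_le_exp (-(1 / (n : ℝ)))
    linarith
  have h2 : (1 - 1 / (n : ℝ)) ^ k ≤ Real.exp (-(1 / (n : ℝ))) ^ k := pow_le_pow_left₀ h0 h1 k
  have h3 : Real.exp (-(1 / (n : ℝ))) ^ k = Real.exp (-((k : ℝ) / n)) := by
    rw [← Real.exp_nat_mul]; congr 1; ring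
  have h4 : Real.exp (-((k : ℝ) / n)) ≤ Real.exp (-1) := by
    apply Real.exp_le_exp.mpr
    have : (1 : ℝ) ≤ (k : ℝ) / n := by
      rw [le_div_iff₀ hn0]; simpa using (by exact_mod_cast hk : (n : ℝ) ≤ k)
    linarith
  have h5 : Real.exp (-1) < 1 / 2 := by
    have := Real.exp_one_gt_d9
    rw [Real.exp_neg, ← one_div]
    exact one_div_lt_one_div_of_lt (by norm_num) (by linarith)
  rw [h3] at h2
  linarith

/-- second moment: pairwise disjoint `t`-sets whose sub-cubes lie in a set of density `≤ 1/2` -/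
theorem disjoint_killed_card {N q t : ℕ} (hq : 0 < q) (QQ : Finset (Finset (Fin N)))
    (hd : (QQ : Set (Finset (Fin N))).PairwiseDisjoint id) (hc : ∀ Q ∈ QQ, Q.card = t)
    (J : Finset (Fin N → Fin q)) (hJ : 2 * J.card ≤ q ^ N) (hk : ∀ Q ∈ QQ, W Q ⊆ J) :
    QQ.card ≤ q ^ t := by
  classical
  have : NeZero q := ⟨hq.ne'⟩
  by_contra hcon
  push Not at hcon
  have h1 := Bout_card (q := q) t QQ (fun Q hQ Q' hQ' hne => hd hQ hQ' hne)
    (fun Q hQ => (hc Q hQ).le)
  have h2 := pow_lt_half (q ^ t) QQ.card (Nat.one_le_pow _ _ hq) hcon.le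
  have h3 : (Finset.univ : Finset (Fin N → Fin q)) ⊆ J ∪ Bout QQ := by
    intro x _
    by_cases hx : ∃ Q ∈ QQ, x ∈ W Q
    · obtain ⟨Q, hQ, hxQ⟩ := hx
      exact Finset.mem_union_left _ (hk Q hQ hxQ)
    · push Not at hx
      exact Finset.mem_union_right _ (by simpa [Bout] using hx)
  have h4 : q ^ N ≤ J.card + (Bout (q := q) QQ).card := by
    have := (Finset.card_le_card h3).trans (Finset.card_union_le _ _)
    simpa using this
  have h5 : ((q : ℝ)) ^ N ≤ J.card + (Bout (q := q) QQ).card := by exact_mod_cast h4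
  have h6 : 2 * (J.card : ℝ) ≤ (q : ℝ) ^ N := by exact_mod_cast hJ
  have h7 : (0 : ℝ) < (q : ℝ) ^ N := by
    have : (0 : ℝ) < q := by exact_mod_cast hq
    positivity
  have h8 : (1 - 1 / (q : ℝ) ^ t) ^ QQ.card * (q : ℝ) ^ N < 1 / 2 * (q : ℝ) ^ N := by
    apply mul_lt_mul_of_pos_right _ h7
    simpa using h2
  linarith

end Crest.Agent.S94
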