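import Mathlib
import Crest.Agent.S94.Defs

set_option autoImplicit false

namespace Crest.Agent.S94
open Finset

theorem Phi_le {N q : ℕ} (h : ℕ) (I : Finset (Fin N)) (J A : Finset (Fin N → Fin q)) :
    Phi h I J A ≤ h := by
  classical
  unfold Phi
  exact (card_filter_le _ _).trans (by simp)

theorem lev_mono {N q : ℕ} {I : Finset (Fin N)} {J : Finset (Fin N → Fin q)}
    {A B : Finset (Fin N → Fin q)} (hAB : A ⊆ B) {i k : ℕ} (hik : i ≤ k)
    (hl : lev I J A i) : lev I J B k := by
  obtain ⟨Q, hQI, hQc, hQ⟩ := hl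
  exact ⟨Q, hQI, lt_of_lt_of_le hQc (Nat.pow_le_pow_right (by norm_num) hik), hQ.trans hAB⟩

theorem Phi_mono {N q : ℕ} (h : ℕ) (I : Finset (Fin N)) (J : Finset (Fin N → Fin q))
    {A B : Finset (Fin N → Fin q)} (hAB : A ⊆ B) : Phi h I J A ≤ Phi h I J B := by
  classical
  unfold Phi
  apply card_le_card
  intro i hi
  simp only [mem_filter] at hi ⊢
  exact ⟨hi.1, lev_mono hAB le_rfl hi.2⟩

/-- the level set is an up-set of `range h`, hence determined by its cardinality -/
theorem lev_iff {N q : ℕ} {h : ℕ} {I : Finset (Fin N)} {J A : Finset (Fin N → Fin q)} {i : ℕ}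
    (hi : i < h) : lev I J A i ↔ h ≤ i + Phi h I J A := by
  classical
  constructor
  · intro hl
    have hsub : Finset.Ico i h ⊆ (range h).filter (fun i => lev I J A i) := by
      intro k hk
      simp only [mem_Ico] at hk
      simp only [mem_filter, mem_range]
      exact ⟨hk.2, lev_mono (Finset.Subset.refl _) hk.1 hl⟩
    have := card_le_card hsub
    simp only [Nat.card_Ico] at this
    have hP : Phi h I J A = ((range h).filter (fun i => lev I J A i)).card := by
      unfold Phi; congr
    omega
  · intro hle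
    by_contra hn
    have hsub : (range h).filter (fun i => lev I J A i) ⊆ Finset.Ico (i+1) h := by
      intro k hk
      simp only [mem_filter, mem_range] at hk
      simp only [mem_Ico]
      refine ⟨?_, hk.1⟩
      by_contra hki
      exact hn (lev_mono (Finset.Subset.refl _) (by omega) hk.2)
    have := card_le_card hsub
    simp only [Nat.card_Ico] at this
    have hP : Phi h I J A = ((range h).filter (fun i => lev I J A i)).card := by
      unfold Phi; congr
    omega

theorem W_union {N q : ℕ} (Q Q' : Finset (Fin N)) :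
    W (q := q) (Q ∪ Q') = W Q ∩ W Q' := by
  classical
  ext x
  simp only [W, mem_filter, mem_univ, true_and, mem_inter, mem_union]
  constructor
  · intro hx
    exact ⟨fun j hj => hx j (Or.inl hj), fun j hj => hx j (Or.inr hj)⟩
  · rintro ⟨h1, h2⟩ j (hj | hj)
    · exact h1 j hj
    · exact h2 j hj

theorem lev_inter {N q : ℕ} {I : Finset (Fin N)} {J A B : Finset (Fin N → Fin q)} {i : ℕ}
    (hA : lev I J A i) (hB : lev I J B i) : lev I J (A ∩ B) (i+1) := by
  classical
  obtain ⟨Q, hQI, hQc, hQ⟩ := hA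
  obtain ⟨Q', hQI', hQc', hQ'⟩ := hB
  refine ⟨Q ∪ Q', union_subset hQI hQI', ?_, ?_⟩
  · have := card_union_le Q Q'
    rw [pow_succ]
    omega
  · intro x hx
    rw [W_union] at hx
    simp only [mem_sdiff, mem_inter] at hx ⊢
    exact ⟨hQ (by simp only [mem_sdiff]; exact ⟨hx.1.1, hx.2⟩),
      hQ' (by simp only [mem_sdiff]; exact ⟨hx.1.2, hx.2⟩)⟩

/-- approximate supermodularity -/
theorem Phi_super {N q : ℕ} (h : ℕ) (I : Finset (Fin N)) (J A B : Finset (Fin N → Fin q)) :
    Phi h I J A + Phi h I J B ≤ Phi h I J (A ∪ B) + Phi h I J (A ∩ B) + 1 := by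
  classical
  have h1 := Phi_mono h I J (subset_union_left (s₁ := A) (s₂ := B))
  have h2 := Phi_mono h I J (subset_union_right (s₁ := A) (s₂ := B))
  have hA := Phi_le h I J A
  have hB := Phi_le h I J B
  -- it suffices: min ≤ Phi (A ∩ B) + 1
  have key : min (Phi h I J A) (Phi h I J B) ≤ Phi h I J (A ∩ B) + 1 := by
    by_contra hcon
    push_neg at hcon
    set p := min (Phi h I J A) (Phi h I J B) with hp
    have hpA : p ≤ Phi h I J A := min_le_left _ _
    have hpB : p ≤ Phi h I J B := min_le_right _ _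
    have hp2 : 2 ≤ p := by omega
    have hph : p ≤ h := hpA.trans hA
    have hi : h - p < h := by omega
    have lA : lev I J A (h - p) := (lev_iff hi).2 (by omega)
    have lB : lev I J B (h - p) := (lev_iff hi).2 (by omega)
    have lAB := lev_inter lA lB
    have := (lev_iff (h := h) (show h - p + 1 < h by omega)).1 lAB
    omega
  rcases le_total (Phi h I J A) (Phi h I J B) with hle | hle
  · rw [min_eq_left hle] at key; omega
  · rw [min_eq_right hle] at key; omega

theorem Phi_inter_W {N q : ℕ} (h : ℕ) (I : Finset (Fin N)) (J A : Finset (Fin N → Fin q))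
    {j : Fin N} (hj : j ∈ I) : Phi h I J A ≤ Phi h I J (A ∩ W {j}) + 1 := by
  classical
  by_contra hcon
  push_neg at hcon
  have hA := Phi_le h I J A
  set p := Phi h I J A with hp
  have hi : h - p < h := by omega
  have lA : lev I J A (h - p) := (lev_iff hi).2 (by omega)
  obtain ⟨Q, hQI, hQc, hQ⟩ := lA
  have l2 : lev I J (A ∩ W {j}) (h - p + 1) := by
    refine ⟨Q ∪ {j}, union_subset hQI (by simpa using hj), ?_, ?_⟩
    · have := card_union_le Q {j}
      have h3 : 1 ≤ 2 ^ (h - p) := Nat.one_le_two_pow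
      simp only [card_singleton] at this
      rw [pow_succ]
      omega
    · intro x hx
      rw [W_union] at hx
      simp only [mem_sdiff, mem_inter] at hx ⊢
      exact ⟨hQ (by simp only [mem_sdiff]; exact ⟨hx.1.1, hx.2⟩), hx.1.2⟩
  have := (lev_iff (h := h) (show h - p + 1 < h by omega)).1 l2
  omega

theorem Phi_top {N q : ℕ} (h : ℕ) (I : Finset (Fin N)) (J A : Finset (Fin N → Fin q))
    (hA : univ \ J ⊆ A) : Phi h I J A = h := by
  classical
  unfold Phi
  rw [filter_true_of_mem, card_range]
  intro i _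
  refine ⟨∅, empty_subset _, by simp, ?_⟩
  intro x hx
  apply hA
  simp only [mem_sdiff, mem_univ, true_and] at hx ⊢
  exact hx.2

theorem Phi_bot {N q : ℕ} (h : ℕ) (I : Finset (Fin N)) (J A : Finset (Fin N → Fin q))
    (hI : ∀ Q ⊆ I, Q.card ≤ 2 ^ h → ¬ (W Q ⊆ J)) (hA : A ⊆ J) : Phi h I J A = 0 := by
  classical
  unfold Phi
  rw [card_eq_zero, filter_eq_empty_iff]
  intro i hi
  simp only [mem_range] at hi
  rintro ⟨Q, hQI, hQc, hQ⟩
  apply hI Q hQI
  · exact hQc.le.trans (Nat.pow_le_pow_right (by norm_num) hi.le)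
  · intro x hx
    by_contra hxJ
    exact hxJ (hA (hQ (by simp only [mem_sdiff]; exact ⟨hx, hxJ⟩)))

end Crest.Agent.S94
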