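import Crest.Agent.S94.Defs
import Crest.Agent.S94.Count
import Crest.Agent.S94.PhiLem
import Crest.Agent.S94.Approx

set_option autoImplicit false

namespace Crest.Agent.S94
open Finset

/-- signature of a row/column word with respect to the listed rows -/
def sig {N q m h : ℕ} (U : Finset (Fin N → Fin q)) (Ys : Fin h → (Fin N → Fin q) → Fin m)
    (u : (Fin N → Fin q) → Fin m) : (Fin N → Fin q) → Finset (Fin h) :=
  fun x => if x ∈ U then univ.filter (fun i => Ys i x = u x) else ∅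

/-- push-forward of `ν` to the `m`-free index set -/
noncomputable def push {N q m h : ℕ} (U : Finset (Fin N → Fin q))
    (Ys : Fin h → (Fin N → Fin q) → Fin m) (ν : Cols N q m → ℝ)
    (r : JJ N q × ((Fin N → Fin q) → Finset (Fin h))) : ℝ :=
  ∑ u : (Fin N → Fin q) → Fin m, if sig U Ys u = r.2 then ν (r.1, u) else 0

theorem sig_filter {N q m h : ℕ} (U : Finset (Fin N → Fin q))
    (Ys : Fin h → (Fin N → Fin q) → Fin m) (y u : (Fin N → Fin q) → Fin m) :
    U.filter (fun x => y x = u x ∧ ∃ i, Ys i x = u x)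
      = univ.filter (fun x => sig U Ys y x = sig U Ys u x ∧ (sig U Ys u x).Nonempty) := by
  ext x
  simp only [mem_filter, mem_univ, true_and]
  unfold sig
  constructor
  · rintro ⟨hx, hyu, i, hi⟩
    rw [if_pos hx, if_pos hx]
    refine ⟨?_, ⟨i, by simp [hi]⟩⟩
    rw [hyu]
  · rintro ⟨h1, h2⟩
    by_cases hx : x ∈ U
    · rw [if_pos hx] at h1 h2
      rw [if_pos hx] at h1
      obtain ⟨i, hi⟩ := h2
      have hi' : Ys i x = u x := (mem_filter.mp hi).2
      rw [← h1] at hi
      have hi'' : Ys i x = y x := (mem_filter.mp hi).2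
      exact ⟨hx, hi''.symm.trans hi', i, hi'⟩
    · rw [if_neg hx] at h2
      exact absurd h2 (by simp)

theorem push_sum {N q m h : ℕ} (U : Finset (Fin N → Fin q))
    (Ys : Fin h → (Fin N → Fin q) → Fin m) (ν : Cols N q m → ℝ)
    (I : JJ N q → Finset (Fin N)) (y : (Fin N → Fin q) → Fin m) :
    ∑ p, ν p * (Phi h (I p.1) p.1.1
            (U.filter (fun x => y x = p.2 x ∧ ∃ i, Ys i x = p.2 x)) : ℝ)
      = ∑ r : JJ N q × ((Fin N → Fin q) → Finset (Fin h)), push U Ys ν r *
          (Phi h (I r.1) r.1.1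
            (univ.filter (fun x => sig U Ys y x = r.2 x ∧ (r.2 x).Nonempty)) : ℝ) := by
  rw [Fintype.sum_prod_type, Fintype.sum_prod_type]
  apply Finset.sum_congr rfl
  intro J _
  unfold push
  simp only
  have h1 : ∀ s : (Fin N → Fin q) → Finset (Fin h),
      (∑ u : (Fin N → Fin q) → Fin m, if sig U Ys u = s then ν (J, u) else 0) *
        (Phi h (I J) J.1 (univ.filter (fun x => sig U Ys y x = s x ∧ (s x).Nonempty)) : ℝ)
      = ∑ u : (Fin N → Fin q) → Fin m, if sig U Ys u = s then ν (J, u) *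
        (Phi h (I J) J.1 (univ.filter (fun x => sig U Ys y x = sig U Ys u x ∧
          (sig U Ys u x).Nonempty)) : ℝ) else 0 := by
    intro s
    rw [Finset.sum_mul]
    apply Finset.sum_congr rfl
    intro u _
    split_ifs with hs
    · subst hs; rfl
    · ring
  rw [Finset.sum_congr rfl (fun s _ => h1 s), Finset.sum_comm]
  apply Finset.sum_congr rfl
  intro u _
  rw [Finset.sum_ite_eq Finset.univ (sig U Ys u), if_pos (Finset.mem_univ _), sig_filter]

/-- rounding to `2K+1` values -/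
noncomputable def rnd (K : ℕ) (x : ℝ) : Fin (2 * K + 1) :=
  ⟨min (2 * K) (⌊(K : ℝ) * x⌋ + K).toNat, by omega⟩

theorem rnd_eq {K : ℕ} {x y : ℝ} (hx : |x| ≤ 1) (hy : |y| ≤ 1) (h : rnd K x = rnd K y) :
    (K : ℝ) * |x - y| ≤ 1 := by
  have key : ∀ z : ℝ, |z| ≤ 1 → 0 ≤ ⌊(K : ℝ) * z⌋ + K ∧ ⌊(K : ℝ) * z⌋ + K ≤ 2 * K := by
    intro z hz
    have hz' := abs_le.mp hz
    have hK : (0 : ℝ) ≤ K := Nat.cast_nonneg K
    constructor
    · have : -(K : ℤ) ≤ ⌊(K : ℝ) * z⌋ := by
        rw [Int.le_floor]; push_cast; nlinarith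
      omega
    · have : ⌊(K : ℝ) * z⌋ ≤ K := by
        have h1 : (K : ℝ) * z ≤ K := by nlinarith
        calc ⌊(K : ℝ) * z⌋ ≤ ⌊(K : ℝ)⌋ := Int.floor_le_floor h1
          _ = K := by simp
      omega
  obtain ⟨hx1, hx2⟩ := key x hx
  obtain ⟨hy1, hy2⟩ := key y hy
  have h' := congrArg Fin.val h
  simp only [rnd] at h'
  have hfl : ⌊(K : ℝ) * x⌋ = ⌊(K : ℝ) * y⌋ := by omega
  have := Int.abs_sub_lt_one_of_floor_eq_floor hfl
  rw [← mul_sub, abs_mul, abs_of_nonneg (Nat.cast_nonneg K : (0:ℝ) ≤ K)] at this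
  exact this.le

theorem sig_congr {N q m h : ℕ} (U : Finset (Fin N → Fin q))
    (Ys Ys' : Fin h → (Fin N → Fin q) → Fin m) (hY : ∀ x ∈ U, ∀ i, Ys i x = Ys' i x) :
    (sig U Ys : ((Fin N → Fin q) → Fin m) → _) = sig U Ys' := by
  funext u x
  unfold sig
  split_ifs with hx
  · congr 1
    funext i
    rw [hY x hx i]
  · rfl

theorem push_congr {N q m h : ℕ} (U : Finset (Fin N → Fin q))
    (Ys Ys' : Fin h → (Fin N → Fin q) → Fin m) (hY : ∀ x ∈ U, ∀ i, Ys i x = Ys' i x)
    (ν : Cols N q m → ℝ) : push U Ys ν = push U Ys' ν := by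
  funext r
  unfold push
  rw [sig_congr U Ys Ys' hY]

theorem push_abs {N q m h : ℕ} (U : Finset (Fin N → Fin q))
    (Ys : Fin h → (Fin N → Fin q) → Fin m) (ν : Cols N q m → ℝ) (hν : ∑ p, |ν p| ≤ 1)
    (r : JJ N q × ((Fin N → Fin q) → Finset (Fin h))) : |push U Ys ν r| ≤ 1 := by
  unfold push
  calc |∑ u : (Fin N → Fin q) → Fin m, if sig U Ys u = r.2 then ν (r.1, u) else 0|
      ≤ ∑ u : (Fin N → Fin q) → Fin m, |if sig U Ys u = r.2 then ν (r.1, u) else 0| :=
        Finset.abs_sum_le_sum_abs _ _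
    _ ≤ ∑ u : (Fin N → Fin q) → Fin m, |ν (r.1, u)| := by
        apply Finset.sum_le_sum
        intro u _
        split_ifs
        · exact le_rfl
        · simp
    _ ≤ ∑ J : JJ N q, ∑ u : (Fin N → Fin q) → Fin m, |ν (J, u)| :=
        Finset.single_le_sum (f := fun J : JJ N q => ∑ u : (Fin N → Fin q) → Fin m, |ν (J, u)|)
          (fun J _ => Finset.sum_nonneg (fun u _ => abs_nonneg _)) (Finset.mem_univ r.1)
    _ = ∑ p, |ν p| := by rw [Fintype.sum_prod_type]
    _ ≤ 1 := hν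

theorem dual_codes {N q h t : ℕ} (hN0 : 0 < N) (hq : 0 < q) (hh : 0 < h)
    (hN : h * (t * q ^ t) ≤ N)
    (I : JJ N q → Finset (Fin N)) (hI : ∀ J, N ≤ (I J).card + t * q ^ t) :
    ∃ C0 : ℕ, 0 < C0 ∧ ∀ m : ℕ, 0 < m → ∃ (κ : Type) (_ : Fintype κ)
      (code : (Cols N q m → ℝ) → κ), Fintype.card κ ≤ C0 * m ^ (h * q ^ (N - 1)) ∧
      ∀ ν ν' : Cols N q m → ℝ, ∑ p, |ν p| ≤ 1 → ∑ p, |ν' p| ≤ 1 → code ν = code ν' →
        ∀ y : (Fin N → Fin q) → Fin m, |∑ p, (ν p - ν' p) * FF h I y p| ≤ 9 := by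
  classical
  set PP := JJ N q × ((Fin N → Fin q) → Finset (Fin h)) with hPP
  have : Nonempty PP := ⟨(⟨∅, by simp⟩, fun _ => ∅)⟩
  have hcP : 0 < Fintype.card PP := Fintype.card_pos
  set K : ℕ := h * Fintype.card PP with hK
  have hK0 : 0 < K := Nat.mul_pos hh hcP
  refine ⟨N * (2 * K + 1) ^ Fintype.card PP, by positivity, fun m hm => ?_⟩
  have : Nonempty (Fin m) := ⟨⟨0, hm⟩⟩
  -- choice of index and rows
  have hch : ∀ ν : Cols N q m → ℝ, ∃ (j : Fin N) (Ys : Fin h → (Fin N → Fin q) → Fin m),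
      ∑ p, |ν p| ≤ 1 → ∀ y : (Fin N → Fin q) → Fin m,
      |∑ p, ν p * FF h I y p
        - ∑ p, ν p * (Phi h (I p.1) p.1.1
            ((W {j}).filter (fun x => y x = p.2 x ∧ ∃ i, Ys i x = p.2 x)) : ℝ)| ≤ 4 := by
    intro ν
    by_cases hν : ∑ p, |ν p| ≤ 1
    · obtain ⟨j, Ys, hY⟩ := approx hN0 hh hm hN I hI ν hν
      exact ⟨j, Ys, fun _ => hY⟩
    · exact ⟨⟨0, hN0⟩, fun _ _ => ⟨0, hm⟩, fun h' => absurd h' hν⟩
  choose jj Ys hYs using hch
  refine ⟨(Σ j : Fin N, ({x : Fin N → Fin q // x ∈ W {j}} → Fin h → Fin m)) ×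
      (PP → Fin (2 * K + 1)), inferInstance,
      fun ν => (⟨jj ν, fun x i => Ys ν i x.1⟩, fun r => rnd K (push (W {jj ν}) (Ys ν) ν r)),
      ?_, ?_⟩
  · rw [Fintype.card_prod, Fintype.card_sigma, Fintype.card_fun, Fintype.card_fin]
    have hc : ∀ j : Fin N, Fintype.card ({x : Fin N → Fin q // x ∈ W {j}} → Fin h → Fin m)
        = m ^ (h * q ^ (N - 1)) := by
      intro j
      rw [Fintype.card_fun, Fintype.card_fun, Fintype.card_fin, Fintype.card_fin,
        Fintype.card_coe, ← pow_mul]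
      congr 2
      have := card_W hq ({j} : Finset (Fin N))
      rw [Finset.card_singleton, pow_one] at this
      have e : q ^ N = q ^ (N - 1) * q := by
        rw [← pow_succ]; congr 1; omega
      rw [e] at this
      exact Nat.eq_of_mul_eq_mul_right hq this
    rw [Finset.sum_congr rfl (fun j _ => hc j)]
    simp only [Finset.sum_const, Finset.card_univ, Fintype.card_fin, smul_eq_mul]
    apply le_of_eq
    ring
  · intro ν ν' hν hν' hcode y
    rw [Prod.mk.injEq] at hcode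
    obtain ⟨h1, h2⟩ := hcode
    have hjY : jj ν = jj ν' ∧ ∀ x ∈ W {jj ν}, ∀ i, Ys ν i x = Ys ν' i x := by
      rw [Sigma.mk.inj_iff] at h1
      obtain ⟨hj, hY⟩ := h1
      refine ⟨hj, ?_⟩
      revert hY
      generalize jj ν' = j' at hj
      subst hj
      intro hY x hx i
      have := congrFun (congrFun (eq_of_heq hY) ⟨x, hx⟩) i
      exact this
    obtain ⟨hj, hY⟩ := hjY
    have e1 := hYs ν hν y
    have e2 := hYs ν' hν' y
    rw [push_sum] at e1 e2
    rw [← hj] at e2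
    have hs : (sig (W {jj ν}) (Ys ν') : ((Fin N → Fin q) → Fin m) → _)
        = sig (W {jj ν}) (Ys ν) := (sig_congr _ _ _ hY).symm
    have hp : push (W {jj ν}) (Ys ν') ν' = push (W {jj ν}) (Ys ν) ν' :=
      (push_congr _ _ _ hY ν').symm
    rw [hs, hp] at e2
    set a1 := ∑ r : JJ N q × ((Fin N → Fin q) → Finset (Fin h)), push (W {jj ν}) (Ys ν) ν r *
          (Phi h (I r.1) r.1.1
            (univ.filter (fun x => sig (W {jj ν}) (Ys ν) y x = r.2 x ∧ (r.2 x).Nonempty)) : ℝ)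
      with ha1
    set a2 := ∑ r : JJ N q × ((Fin N → Fin q) → Finset (Fin h)), push (W {jj ν}) (Ys ν) ν' r *
          (Phi h (I r.1) r.1.1
            (univ.filter (fun x => sig (W {jj ν}) (Ys ν) y x = r.2 x ∧ (r.2 x).Nonempty)) : ℝ)
      with ha2
    have h12 : |a1 - a2| ≤ 1 := by
      rw [ha1, ha2, ← Finset.sum_sub_distrib]
      calc |∑ r : JJ N q × ((Fin N → Fin q) → Finset (Fin h)), _|
          ≤ ∑ r : JJ N q × ((Fin N → Fin q) → Finset (Fin h)), _ :=
            Finset.abs_sum_le_sum_abs _ _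
        _ ≤ ∑ _r : PP, (1 / K : ℝ) * h := by
            apply Finset.sum_le_sum
            intro r _
            rw [← sub_mul, abs_mul]
            apply mul_le_mul
            · have h3 : rnd K (push (W {jj ν}) (Ys ν) ν r) = rnd K (push (W {jj ν}) (Ys ν) ν' r) := by
                have := congrFun h2 r
                rw [← hp, hj]
                rw [hj] at this
                exact this
              have := rnd_eq (push_abs _ _ ν hν r) (push_abs _ _ ν' hν' r) h3
              rw [le_div_iff₀ (by exact_mod_cast hK0), mul_comm]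
              exact this
            · rw [abs_of_nonneg (Nat.cast_nonneg _)]
              exact_mod_cast Phi_le _ _ _ _
            · exact abs_nonneg _
            · positivity
        _ = 1 := by
            rw [Finset.sum_const, Finset.card_univ, nsmul_eq_mul, hK]
            push_cast
            have : (h:ℝ) ≠ 0 := by exact_mod_cast hh.ne'
            have h' : (Fintype.card PP:ℝ) ≠ 0 := by exact_mod_cast hcP.ne'
            field_simp
    have e3 : ∑ p, (ν p - ν' p) * FF h I y p = ∑ p, ν p * FF h I y p - ∑ p, ν' p * FF h I y p := by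
      rw [← Finset.sum_sub_distrib]
      exact Finset.sum_congr rfl (fun p _ => by ring)
    rw [e3]
    rw [abs_le] at e1 e2 h12 ⊢
    constructor <;> linarith [e1.1, e1.2, e2.1, e2.2, h12.1, h12.2]

end Crest.Agent.S94
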