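import Crest.Agent.S94.PhiLem

set_option autoImplicit false

namespace Crest.Agent.S94
open Finset

/-- two rows that differ by less than `h` in every column agree on more than half of the cube -/
theorem conflict {N q m h : ℕ} (hh : 0 < h) (I : JJ N q → Finset (Fin N))
    (hI : ∀ J : JJ N q, ∀ Q ⊆ I J, Q.card ≤ 2 ^ h → ¬ (W Q ⊆ J.1))
    (y y' : (Fin N → Fin q) → Fin m)
    (hF : ∀ p, |FF h I y p - FF h I y' p| < h) :
    q ^ N < 2 * (univ.filter (fun x => y x = y' x)).card := by
  by_contra hc
  push Not at hc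
  have hJ := hF (⟨univ.filter (fun x => y x = y' x), hc⟩, y)
  have h1 : FF h I y (⟨univ.filter (fun x => y x = y' x), hc⟩, y) = h := by
    unfold FF
    rw [Phi_top]
    intro x _
    simp
  have h2 : FF h I y' (⟨univ.filter (fun x => y x = y' x), hc⟩, y) = 0 := by
    unfold FF
    rw [Phi_bot h _ _ _ (hI _)]
    · simp
    · intro x hx
      simp only [mem_filter, mem_univ, true_and] at hx ⊢
      exact hx.symm
  rw [h1, h2, sub_zero, abs_of_nonneg (Nat.cast_nonneg _)] at hJ
  exact lt_irrefl _ hJ

end Crest.Agent.S94
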