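import Mathlib
import Crest.Prelude.Def_Polar

set_option autoImplicit false

namespace Crest.Agent.S94
open Finset

open Pointwise in
theorem geometry (a : ℝ) (ha : 1 ≤ a) {P Y κ : Type} [Fintype P] [Nonempty P] [Fintype Y]
    [Fintype κ] (F : Y → P → ℝ) (h : ℕ) (hh : 27 * a ≤ h)
    (code : (P → ℝ) → κ)
    (hcode : ∀ ν ν' : P → ℝ, ∑ p, |ν p| ≤ 1 → ∑ p, |ν' p| ≤ 1 → code ν = code ν' →
        ∀ y, |∑ p, (ν p - ν' p) * F y p| ≤ 9)
    (B : ℕ → Prop)
    (hrow : ∀ (k : ℕ) (c : Y → Fin k), (∀ y y', c y = c y' → ∀ p, |F y p - F y' p| < h) → B k) :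
    ∃ n : ℕ, 0 < n ∧ ∃ K : Set (EuclideanSpace ℝ (Fin n)),
      Convex ℝ K ∧ IsCompact K ∧ (interior K).Nonempty ∧ (∀ x ∈ K, -x ∈ K) ∧
      ∃ t₁ : Finset (EuclideanSpace ℝ (Fin n)), t₁.card ≤ Fintype.card κ ∧
        Crest.AnalysisR.polarSet {x : EuclideanSpace ℝ (Fin n) | ∀ i, |x i| ≤ 1} ⊆
          ⋃ y ∈ t₁, (y +ᵥ a⁻¹ • Crest.AnalysisR.polarSet K) ∧
        ∀ t₂ : Finset (EuclideanSpace ℝ (Fin n)),
          K ⊆ ⋃ x ∈ t₂, (x +ᵥ {z : EuclideanSpace ℝ (Fin n) | ∀ i, |z i| ≤ 1}) →
          B t₂.card := by
  classical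
  set n := Fintype.card P with hn
  let e : P ≃ Fin n := Fintype.equivFin P
  have hn0 : 0 < n := Fintype.card_pos
  have ha0 : 0 < a := by linarith
  have hh0 : (0 : ℝ) < h := by linarith
  let s : ℝ := 5 / (2 * h)
  have hs : 0 < s := by positivity
  -- points
  let pt : Y → EuclideanSpace ℝ (Fin n) := fun y => WithLp.toLp 2 (fun i => s * F y (e.symm i))
  let G : Set (EuclideanSpace ℝ (Fin n)) := Set.range pt ∪ Set.range (fun y => - pt y)
  have hGfin : G.Finite := (Set.finite_range _).union (Set.finite_range _)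
  have hGneg : ∀ x ∈ G, -x ∈ G := by
    rintro x (⟨y, rfl⟩ | ⟨y, rfl⟩)
    · exact Or.inr ⟨y, rfl⟩
    · exact Or.inl ⟨y, by simp⟩
  let r : ℝ := 1 / (12 * a)
  have hr : 0 < r := by positivity
  let A : Set (EuclideanSpace ℝ (Fin n)) := convexHull ℝ (insert 0 G)
  let K : Set (EuclideanSpace ℝ (Fin n)) := A + Metric.closedBall 0 r
  have hAc : IsCompact A := Set.Finite.isCompact_convexHull ℝ (hGfin.insert 0)
  have h0A : (0 : EuclideanSpace ℝ (Fin n)) ∈ A := subset_convexHull _ _ (Set.mem_insert _ _)
  have hAneg : ∀ x ∈ A, -x ∈ A := by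
    have h1 : -(insert (0 : EuclideanSpace ℝ (Fin n)) G) = insert 0 G := by
      ext x
      simp only [Set.mem_neg, Set.mem_insert_iff, neg_eq_zero]
      constructor
      · rintro (h | h)
        · exact Or.inl h
        · right; have := hGneg _ h; simpa using this
      · rintro (h | h)
        · exact Or.inl h
        · exact Or.inr (hGneg _ h)
    intro x hx
    have : -x ∈ -A := by simpa using hx
    have h2 : -A = A := by
      show -(convexHull ℝ (insert 0 G)) = _
      rw [← convexHull_neg, h1]
    rwa [h2] at this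
  have hptK : ∀ y, pt y ∈ K := by
    intro y
    refine Set.mem_add.2 ⟨pt y, subset_convexHull _ _ (Or.inr (Or.inl ⟨y, rfl⟩)), 0, ?_, by simp⟩
    simp [hr.le]
  refine ⟨n, hn0, K, ?_, ?_, ?_, ?_, ?_⟩
  · exact (convex_convexHull ℝ _).add (convex_closedBall _ _)
  · exact hAc.add (isCompact_closedBall _ _)
  · refine ⟨0, ?_⟩
    rw [mem_interior]
    refine ⟨Metric.ball 0 r, ?_, Metric.isOpen_ball, Metric.mem_ball_self hr⟩
    intro x hx
    exact Set.mem_add.2 ⟨0, h0A, x, Metric.ball_subset_closedBall hx, by simp⟩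
  · intro x hx
    obtain ⟨u, hu, v, hv, rfl⟩ := Set.mem_add.1 hx
    refine Set.mem_add.2 ⟨-u, hAneg u hu, -v, ?_, by abel⟩
    simpa using hv
  · -- the dual cover
    let vec : EuclideanSpace ℝ (Fin n) → (P → ℝ) := fun x c => x (e c)
    let good : EuclideanSpace ℝ (Fin n) → Prop := fun x => ∑ c, |vec x c| ≤ 1
    let rep : κ → EuclideanSpace ℝ (Fin n) := fun p =>
      if h : ∃ x, good x ∧ code (vec x) = p then h.choose else 0
    refine ⟨Finset.univ.image rep, ?_, ?_, ?_⟩
    · exact Finset.card_image_le.trans (by simp)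
    · intro x hx
      have hgx : good x := by
        have h1 := hx (WithLp.toLp 2 (fun i => SignType.sign (x i) : Fin n → ℝ)) (by
          intro i
          show |((SignType.sign (x i) : SignType) : ℝ)| ≤ 1
          rcases lt_trichotomy (x i) 0 with h | h | h
          · simp [sign_neg h]
          · simp [h]
          · simp [sign_pos h])
        have h2 : inner ℝ (WithLp.toLp 2 (fun i => ((SignType.sign (x i) : SignType) : ℝ)) :
            EuclideanSpace ℝ (Fin n)) x = ∑ i, |x i| := by
          rw [PiLp.inner_apply]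
          refine Finset.sum_congr rfl fun i _ => ?_
          show x i * _ = _
          rw [mul_comm]
          exact sign_mul_self (x i)
        rw [h2] at h1
        show ∑ c, |x (e c)| ≤ 1
        rw [Equiv.sum_comp e (fun i => |x i|)]
        exact h1
      have hex : ∃ x', good x' ∧ code (vec x') = code (vec x) := ⟨x, hgx, rfl⟩
      have hrep : rep (code (vec x)) = hex.choose := by
        simp only [rep]; rw [dif_pos hex]
      set x' := rep (code (vec x)) with hx'
      have hx'good : good x' ∧ code (vec x') = code (vec x) := by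
        rw [hrep]; exact hex.choose_spec
      refine Set.mem_iUnion₂.2 ⟨x', Finset.mem_image_of_mem _ (Finset.mem_univ _), ?_⟩
      rw [Set.mem_vadd_set]
      refine ⟨x - x', ?_, by simp⟩
      rw [Set.mem_smul_set]
      refine ⟨a • (x - x'), ?_, by rw [smul_smul, inv_mul_cancel₀ ha0.ne', one_smul]⟩
      -- polar membership
      have hnorm : ∀ z : EuclideanSpace ℝ (Fin n), good z → ‖z‖ ≤ 1 := by
        intro z hz
        have h1 : ∑ i, |z i| ≤ 1 := by
          rw [← Equiv.sum_comp e (fun i => |z i|)]; exact hz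
        have h2 : ‖z‖ ≤ ∑ i, |z i| := by
          rw [EuclideanSpace.norm_eq]
          apply Real.sqrt_le_iff.2
          refine ⟨Finset.sum_nonneg fun i _ => abs_nonneg _, ?_⟩
          have : ∑ i, ‖z i‖ ^ 2 ≤ (∑ i, |z i|) ^ 2 := by
            simp only [Real.norm_eq_abs]
            exact Finset.sum_sq_le_sq_sum_of_nonneg (fun i _ => abs_nonneg _)
          exact this
        linarith
      have hin : ∀ y, |inner ℝ (pt y) (x - x')| ≤ 5 / (6 * a) := by
        intro y
        have h1 : inner ℝ (pt y) (x - x') =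
            s * (∑ c, (vec x c - vec x' c) * F y c) := by
          rw [PiLp.inner_apply, ← Equiv.sum_comp e, Finset.mul_sum]
          refine Finset.sum_congr rfl fun c _ => ?_
          show (x (e c) - x' (e c)) * (s * F y (e.symm (e c))) = _
          rw [Equiv.symm_apply_apply]
          simp only [vec]
          ring
        rw [h1, abs_mul, abs_of_pos hs]
        have h2 := hcode _ _ hgx hx'good.1 hx'good.2.symm y
        calc s * |∑ c, (vec x c - vec x' c) * F y c| ≤ s * 9 :=
              mul_le_mul_of_nonneg_left h2 hs.le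
          _ = 45 / (2 * h) := by simp only [s]; ring
          _ ≤ 45 / (2 * (27 * a)) := by
              apply div_le_div_of_nonneg_left (by norm_num) (by positivity)
              linarith
          _ = 5 / (6 * a) := by field_simp; norm_num
      intro w hw
      obtain ⟨u, hu, v, hv, rfl⟩ := Set.mem_add.1 hw
      rw [inner_add_left, inner_smul_right, inner_smul_right]
      have hu2 : inner ℝ u (x - x') ≤ 5 / (6 * a) := by
        have hconv : Convex ℝ {u : EuclideanSpace ℝ (Fin n) | inner ℝ u (x - x') ≤ 5 / (6 * a)} := by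
          have := (convex_halfSpace_le (f := fun u : EuclideanSpace ℝ (Fin n) => inner ℝ u (x - x'))
            (IsLinearMap.mk (fun a b => inner_add_left _ _ _)
              (fun c a => by rw [inner_smul_left]; simp)) (5 / (6 * a)))
          exact this
        have hsub : insert 0 G ⊆
            {u : EuclideanSpace ℝ (Fin n) | inner ℝ u (x - x') ≤ 5 / (6 * a)} := by
          intro u hu
          rcases hu with rfl | ⟨y, rfl⟩ | ⟨y, rfl⟩
          · show inner ℝ 0 (x - x') ≤ 5 / (6 * a)
            rw [inner_zero_left]; positivity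
          · exact (abs_le.1 (hin y)).2
          · show inner ℝ (- pt y) (x - x') ≤ 5 / (6 * a)
            rw [inner_neg_left]
            linarith [(abs_le.1 (hin y)).1]
        exact convexHull_min hsub hconv hu
      have hv2 : inner ℝ v (x - x') ≤ 1 / (6 * a) := by
        have h1 : ‖v‖ ≤ r := by simpa using hv
        have h2 : ‖x - x'‖ ≤ 2 := by
          have := norm_sub_le x x'
          have := hnorm x hgx
          have := hnorm x' hx'good.1
          linarith
        calc inner ℝ v (x - x') ≤ ‖v‖ * ‖x - x'‖ := real_inner_le_norm _ _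
          _ ≤ r * 2 := by gcongr
          _ = 1 / (6 * a) := by simp only [r]; field_simp; norm_num
      have h3 : a * (5 / (6 * a)) + a * (1 / (6 * a)) = 1 := by field_simp; norm_num
      have h4 := mul_le_mul_of_nonneg_left hu2 ha0.le
      have h5 := mul_le_mul_of_nonneg_left hv2 ha0.le
      linarith
    · intro t₂ ht₂
      have hex : ∀ y, ∃ x ∈ t₂, ∀ i, |pt y i - x i| ≤ 1 := by
        intro y
        obtain ⟨x, hx, hy⟩ := Set.mem_iUnion₂.1 (ht₂ (hptK y))
        obtain ⟨z, hz, hzy⟩ := Set.mem_vadd_set.1 hy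
        refine ⟨x, hx, fun i => ?_⟩
        have : pt y i = x i + z i := by rw [← hzy]; rfl
        rw [this]; simpa using hz i
      choose g hg hg2 using hex
      refine hrow t₂.card (fun y => t₂.equivFin ⟨g y, hg y⟩) ?_
      intro y y' hyy' p
      have hgg : g y = g y' := by
        have := t₂.equivFin.injective hyy'
        exact congrArg Subtype.val this
      have h1 := hg2 y (e p)
      have h2 := hg2 y' (e p)
      rw [hgg] at h1
      have e1 : pt y (e p) = s * F y p := by
        show s * F y (e.symm (e p)) = _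
        rw [Equiv.symm_apply_apply]
      have e2 : pt y' (e p) = s * F y' p := by
        show s * F y' (e.symm (e p)) = _
        rw [Equiv.symm_apply_apply]
      rw [e1] at h1
      rw [e2] at h2
      have h3 : s * |F y p - F y' p| = |s * F y p - s * F y' p| := by
        rw [← mul_sub, abs_mul, abs_of_pos hs]
      have h4 := abs_sub_le (s * F y p) (g y' (e p)) (s * F y' p)
      have h5 : |g y' (e p) - s * F y' p| ≤ 1 := by rw [abs_sub_comm]; exact h2
      have h6 : s * |F y p - F y' p| ≤ 2 := by rw [h3]; linarith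
      have h7 : |F y p - F y' p| ≤ 2 / s := by rw [le_div_iff₀ hs]; linarith
      have h8 : 2 / s = 4 / 5 * h := by simp only [s]; field_simp; norm_num
      rw [h8] at h7
      linarith

end Crest.Agent.S94
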