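import Crest.Agent.S94.Count

set_option autoImplicit false

namespace Crest.Agent.S94
open Finset

theorem W_anti {N q : ℕ} {Q Q' : Finset (Fin N)} (h : Q ⊆ Q') : W (q := q) Q' ⊆ W Q := by
  intro x hx
  simp only [W, mem_filter, mem_univ, true_and] at hx ⊢
  exact fun j hj => hx j (h hj)

theorem exists_good {N q t : ℕ} (hq : 0 < q) (hN : t * q ^ t + t ≤ N)
    (J : Finset (Fin N → Fin q)) (hJ : 2 * J.card ≤ q ^ N) :
    ∃ I : Finset (Fin N), N ≤ I.card + t * q ^ t ∧
      ∀ Q ⊆ I, Q.card ≤ t → ¬ (W Q ⊆ J) := by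
  classical
  -- maximal pairwise disjoint family of killed `t`-sets
  let S : Finset (Finset (Finset (Fin N))) := (univ : Finset (Finset (Finset (Fin N)))).filter
    (fun QQ => (QQ : Set (Finset (Fin N))).PairwiseDisjoint id ∧ (∀ Q ∈ QQ, Q.card = t) ∧
      ∀ Q ∈ QQ, W Q ⊆ J)
  have hS : S.Nonempty := ⟨∅, by simp [S]⟩
  obtain ⟨QQ, hQQ, hmax⟩ := S.exists_max_image Finset.card hS
  simp only [S, mem_filter, mem_univ, true_and] at hQQ hmax
  obtain ⟨hd, hc, hk⟩ := hQQ
  have hcard := disjoint_killed_card hq QQ hd hc J hJ hk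
  let V : Finset (Fin N) := QQ.biUnion id
  have hV : V.card ≤ t * q ^ t := by
    calc V.card ≤ QQ.card * t := card_biUnion_le_card_mul _ _ _ (fun Q hQ => (hc Q hQ).le)
      _ ≤ q ^ t * t := Nat.mul_le_mul_right _ hcard
      _ = t * q ^ t := Nat.mul_comm _ _
  have hI : (Vᶜ).card + V.card = N := by
    have := card_compl_add_card V
    simpa using this
  refine ⟨Vᶜ, by omega, ?_⟩
  intro Q hQ hQt hW
  obtain ⟨Q', hQQ', hQ'I, hQ'c⟩ := exists_subsuperset_card_eq hQ hQt (by omega : t ≤ (Vᶜ).card)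
  have hW' : W Q' ⊆ J := (W_anti hQQ').trans hW
  have hdisj : ∀ R ∈ QQ, Disjoint Q' R := by
    intro R hR
    have h1 : R ⊆ V := subset_biUnion_of_mem id hR
    exact disjoint_of_subset_left hQ'I (disjoint_of_subset_right h1 disjoint_compl_left)
  have hnot : Q' ∈ QQ := by
    by_contra hno
    have := hmax (insert Q' QQ) ⟨by
      rw [coe_insert]
      refine hd.insert ?_
      intro R hR _
      exact hdisj R hR, by
      intro R hR
      rcases mem_insert.1 hR with rfl | hR
      · exact hQ'c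
      · exact hc R hR, by
      intro R hR
      rcases mem_insert.1 hR with rfl | hR
      · exact hW'
      · exact hk R hR⟩
    rw [card_insert_of_notMem hno] at this
    omega
  have hQ'e : Q' = ∅ := by
    have := hdisj Q' hnot
    simpa using this
  -- then `t = 0` and `W ∅ = univ ⊆ J`
  have hu : (univ : Finset (Fin N → Fin q)) ⊆ J := by
    intro x _
    apply hW'
    simp [W, hQ'e]
  have h1 := card_le_card hu
  have h2 : (univ : Finset (Fin N → Fin q)).card = q ^ N := by simp
  have h3 : 0 < q ^ N := pow_pos hq N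
  omega

end Crest.Agent.S94
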