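import Mathlib

set_option autoImplicit false

namespace Crest.Agent.S94
open Finset

theorem numeric (b : ℝ) (hb : 1 ≤ b) (C0 α D : ℕ) (hC0 : 0 < C0) (hα : 2 * b * α < D) :
    ∃ m : ℕ, 0 < m ∧ ∀ c1 c2 : ℕ, c1 ≤ C0 * m ^ α → m ^ D ≤ c2 * (2 ^ D * m ^ (D / 2)) →
      b * Real.log c1 < Real.log c2 := by
  have hβ : 0 < (D : ℝ) / 2 - b * α := by linarith
  set β : ℝ := (D : ℝ) / 2 - b * α with hβdef
  set K : ℝ := b * Real.log C0 + D * Real.log 2 with hK
  -- choose m with β log m > K and m ≥ 2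
  obtain ⟨m, hm2, hm⟩ : ∃ m : ℕ, 2 ≤ m ∧ K < β * Real.log m := by
    have h1 : Filter.Tendsto (fun n : ℕ => β * Real.log n) Filter.atTop Filter.atTop :=
      (Filter.Tendsto.const_mul_atTop hβ (Real.tendsto_log_atTop.comp tendsto_natCast_atTop_atTop))
    obtain ⟨m, hm1, hm2⟩ := ((Filter.eventually_ge_atTop 2).and (h1.eventually_gt_atTop K)).exists
    exact ⟨m, hm1, hm2⟩
  refine ⟨m, by omega, ?_⟩
  intro c1 c2 h1 h2
  have hmR : (0 : ℝ) < m := by exact_mod_cast (by omega : 0 < m)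
  have hmne : (m : ℝ) ≠ 0 := hmR.ne'
  have hlogm : 0 ≤ Real.log m := Real.log_natCast_nonneg m
  have hC0R : (0 : ℝ) < C0 := by exact_mod_cast hC0
  -- bound on log c1
  have hc1 : Real.log c1 ≤ Real.log C0 + α * Real.log m := by
    rcases Nat.eq_zero_or_pos c1 with h | h
    · subst h
      simp only [Nat.cast_zero, Real.log_zero]
      have : 0 ≤ Real.log (C0 : ℝ) := Real.log_natCast_nonneg C0
      positivity
    · have hc : (c1 : ℝ) ≤ (C0 : ℝ) * (m : ℝ) ^ α := by exact_mod_cast h1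
      have hpos : (0 : ℝ) < c1 := by exact_mod_cast h
      have := Real.log_le_log hpos hc
      rwa [Real.log_mul hC0R.ne' (pow_ne_zero _ hmne), Real.log_pow] at this
  -- bound on log c2
  have hc2pos : 0 < c2 := by
    rcases Nat.eq_zero_or_pos c2 with h | h
    · subst h
      have : 0 < m ^ D := pow_pos (by omega) D
      simp at h2
      omega
    · exact h
  have hc2R : (0 : ℝ) < c2 := by exact_mod_cast hc2pos
  have hc2 : (D : ℝ) * Real.log m ≤ Real.log c2 + (D * Real.log 2 + ((D / 2 : ℕ) : ℝ) * Real.log m) := by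
    have hc : (m : ℝ) ^ D ≤ (c2 : ℝ) * ((2 : ℝ) ^ D * (m : ℝ) ^ (D / 2)) := by exact_mod_cast h2
    have := Real.log_le_log (by positivity) hc
    rwa [Real.log_pow, Real.log_mul hc2R.ne' (by positivity), Real.log_mul (by positivity) (by positivity),
      Real.log_pow, Real.log_pow] at this
  have hhalf : ((D / 2 : ℕ) : ℝ) ≤ (D : ℝ) / 2 := Nat.cast_div_le
  have hb0 : 0 ≤ b := by linarith
  have e1 : b * Real.log c1 ≤ b * (Real.log C0 + α * Real.log m) := mul_le_mul_of_nonneg_left hc1 hb0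
  have e2 : ((D / 2 : ℕ) : ℝ) * Real.log m ≤ (D : ℝ) / 2 * Real.log m :=
    mul_le_mul_of_nonneg_right hhalf hlogm
  have e3 : β * Real.log m = (D : ℝ) / 2 * Real.log m - b * α * Real.log m := by
    rw [hβdef]; ring
  nlinarith [e1, e2, e3, hm, hc2]

end Crest.Agent.S94
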