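import Mathlib
import Crest.Agent.S94.Defs

set_option autoImplicit false

namespace Crest.Agent.S94
open Finset

theorem rows_bound {X C : Type} [Fintype X] [DecidableEq X] [Fintype C] (m : ℕ) (hm : 0 < m)
    (c : (X → Fin m) → C)
    (hc : ∀ y y', c y = c y' →
      Fintype.card X < 2 * (univ.filter (fun x => y x = y' x)).card) :
    m ^ (Fintype.card X) ≤ Fintype.card C * (2 ^ (Fintype.card X) * m ^ (Fintype.card X / 2)) := by
  classical
  -- bound on one colour class
  have hclass : ∀ k : C, (univ.filter (fun y : X → Fin m => c y = k)).card
      ≤ 2 ^ (Fintype.card X) * m ^ (Fintype.card X / 2) := by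
    intro k
    rcases (univ.filter (fun y : X → Fin m => c y = k)).eq_empty_or_nonempty with h | ⟨y0, hy0⟩
    · rw [h]; simp
    · rw [mem_filter] at hy0
      have hsub : univ.filter (fun y : X → Fin m => c y = k) ⊆
          ((univ : Finset (Finset X)).filter (fun S => Fintype.card X < 2 * S.card)).biUnion
            (fun S => Fintype.piFinset
              (fun x => if x ∈ S then ({y0 x} : Finset (Fin m)) else univ)) := by
        intro y hy
        rw [mem_filter] at hy
        rw [mem_biUnion]
        refine ⟨univ.filter (fun x => y x = y0 x), ?_, ?_⟩
        · rw [mem_filter]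
          exact ⟨mem_univ _, hc y y0 (hy.2.trans hy0.2.symm)⟩
        · rw [Fintype.mem_piFinset]
          intro x
          by_cases hx : y x = y0 x
          · simp [hx]
          · simp [hx]
      have hpi : ∀ S : Finset X, (Fintype.piFinset
              (fun x => if x ∈ S then ({y0 x} : Finset (Fin m)) else univ)).card
            = m ^ (Fintype.card X - S.card) := by
        intro S
        rw [Fintype.card_piFinset]
        have h1 : ∀ x : X, (if x ∈ S then ({y0 x} : Finset (Fin m)) else univ).card
            = if x ∈ Sᶜ then m else 1 := by
          intro x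
          by_cases hx : x ∈ S <;> simp [hx]
        rw [Finset.prod_congr rfl (fun x _ => h1 x), Finset.prod_ite]
        simp only [prod_const, one_pow, mul_one]
        rw [show (univ.filter (fun x => x ∈ Sᶜ)) = Sᶜ by ext x; simp, card_compl]
      calc (univ.filter (fun y : X → Fin m => c y = k)).card
          ≤ _ := card_le_card hsub
        _ ≤ _ := card_biUnion_le
        _ ≤ ∑ S ∈ (univ : Finset (Finset X)).filter (fun S => Fintype.card X < 2 * S.card),
              m ^ (Fintype.card X / 2) := by
            apply sum_le_sum
            intro S hS
            rw [mem_filter] at hS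
            rw [hpi S]
            apply Nat.pow_le_pow_right hm
            omega
        _ ≤ ∑ S ∈ (univ : Finset (Finset X)), m ^ (Fintype.card X / 2) :=
            sum_le_sum_of_subset (filter_subset _ _)
        _ = 2 ^ (Fintype.card X) * m ^ (Fintype.card X / 2) := by
            rw [sum_const, smul_eq_mul, card_univ, Fintype.card_finset]
  have hcard : m ^ (Fintype.card X) = ∑ k : C, (univ.filter (fun y : X → Fin m => c y = k)).card := by
    rw [← card_eq_sum_card_fiberwise (f := c) (s := univ) (t := univ) (fun _ _ => mem_coe.2 (mem_univ _)),
      card_univ, Fintype.card_fun, Fintype.card_fin]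
  rw [hcard]
  calc _ ≤ ∑ k : C, 2 ^ (Fintype.card X) * m ^ (Fintype.card X / 2) :=
        sum_le_sum (fun k _ => hclass k)
    _ = _ := by rw [sum_const, smul_eq_mul, card_univ]

end Crest.Agent.S94
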